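import Mathlib
import Crest.Prelude.Def_QuadraticTransport

/-!
# Row 82 (S0109), package D1: the Fenchel–Young step

`optimal_is_subgradient`: if `S` pushes `ρ = uniformProbOn K` to `μ` and is a `ρ`-a.e.
subgradient selection (relative to `K`) of a potential `φ` continuous on `K`, then every
quadratic optimal map `T` from `ρ` to `μ` is a `ρ`-a.e. subgradient selection of `φ` as well.
This is the only place where `IsOptimalMap` is used.

Statement copied verbatim from `Crest/Agent/Helper66/OT/SubSpec.lean` (helper66, package D).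
Imports Mathlib and the Prelude only.
-/

set_option autoImplicit false
open MeasureTheory Set
open scoped ENNReal NNReal
open Crest.AnalysisR.OT

namespace Crest.Agent.Helper8.OT

section UniformFacts
variable {E : Type*} [MeasureSpace E]

/-- `uniformProbOn K` is a probability measure when `0 < volume K < ∞`. -/
theorem uniformProbOn_isProbabilityMeasure_of {K : Set E} (h0 : (volume : Measure E) K ≠ 0)
    (htop : (volume : Measure E) K ≠ ∞) : IsProbabilityMeasure (uniformProbOn K) := by
  constructor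
  show ((volume : Measure E) K)⁻¹ • (volume : Measure E).restrict K univ = 1
  rw [Measure.restrict_apply_univ, smul_eq_mul]
  exact ENNReal.inv_mul_cancel h0 htop

/-- `uniformProbOn K` has the same null sets as `volume.restrict K` when `volume K < ∞`. -/
theorem uniformProbOn_ae_eq {K : Set E} (htop : (volume : Measure E) K ≠ ∞) :
    ae (uniformProbOn K) = ae ((volume : Measure E).restrict K) := by
  show ae (((volume : Measure E) K)⁻¹ • (volume : Measure E).restrict K) = _
  exact Measure.ae_ennreal_smul_measure_eq (ENNReal.inv_ne_zero.2 htop) _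

/-- `uniformProbOn K` is carried by `K`. -/
theorem uniformProbOn_ae_mem {K : Set E}
    (hKm : MeasurableSet K) (htop : (volume : Measure E) K ≠ ∞) :
    ∀ᵐ x ∂(uniformProbOn K), x ∈ K := by
  have h : ∀ᵐ x ∂((volume : Measure E).restrict K), x ∈ K := ae_restrict_mem hKm
  rw [Filter.Eventually, ← uniformProbOn_ae_eq htop] at h
  exact h

end UniformFacts

end Crest.Agent.Helper8.OT

namespace Crest.Agent.Helper66.OT

open Crest.Agent.Helper8.OT

/-- **D1 (Fenchel–Young step).** If `S` pushes `ρ = uniformProbOn K` to `μ` and is a `ρ`-a.e.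
subgradient selection (relative to `K`) of a potential `φ` continuous on `K`, then EVERY
quadratic optimal map `T` from `ρ` to `μ` is a `ρ`-a.e. subgradient selection of `φ` as well. -/
theorem optimal_is_subgradient {d : ℕ} (K : Set (EuclideanSpace ℝ (Fin d))) (hKc : IsCompact K)
    (hKv : Convex ℝ K) (hKi : (interior K).Nonempty)
    (Y : Set (EuclideanSpace ℝ (Fin d))) (hYc : IsCompact Y)
    (μ : Measure (EuclideanSpace ℝ (Fin d))) (hμ : IsProbabilityOn Y μ)
    (φ : EuclideanSpace ℝ (Fin d) → ℝ) (hφ : ContinuousOn φ K)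
    (S T : EuclideanSpace ℝ (Fin d) → EuclideanSpace ℝ (Fin d)) (hS : Measurable S)
    (hSpush : (uniformProbOn K).map S = μ)
    (hSsub : ∀ᵐ x ∂(uniformProbOn K), ∀ z ∈ K, φ x + inner ℝ (S x) (z - x) ≤ φ z)
    (hT : IsOptimalMap (uniformProbOn K) μ T) :
    ∀ᵐ x ∂(uniformProbOn K), ∀ z ∈ K, φ x + inner ℝ (T x) (z - x) ≤ φ z := by
  classical
  have hKm : MeasurableSet K := hKc.measurableSet
  have hYm : MeasurableSet Y := hYc.measurableSet
  have hvol0 : (volume : Measure (EuclideanSpace ℝ (Fin d))) K ≠ 0 :=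
    (Measure.measure_pos_of_nonempty_interior volume hKi).ne'
  have hvoltop : (volume : Measure (EuclideanSpace ℝ (Fin d))) K ≠ ∞ := hKc.measure_lt_top.ne
  have : IsProbabilityMeasure (uniformProbOn K) :=
    uniformProbOn_isProbabilityMeasure_of hvol0 hvoltop
  have hKae : ∀ᵐ x ∂(uniformProbOn K), x ∈ K := uniformProbOn_ae_mem hKm hvoltop
  obtain ⟨hTm, hTpush, hTopt⟩ := hT
  have hKne : K.Nonempty := hKi.mono interior_subset
  -- bounds
  obtain ⟨RK, hRK⟩ := hKc.isBounded.exists_norm_le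
  obtain ⟨RY, hRY⟩ := hYc.isBounded.exists_norm_le
  have hRK0 : 0 ≤ RK := by
    obtain ⟨x, hx⟩ := hKne
    exact (norm_nonneg x).trans (hRK x hx)
  obtain ⟨Bφ, hBφ⟩ := hKc.exists_bound_of_continuousOn hφ
  -- the conjugate
  set F : EuclideanSpace ℝ (Fin d) → ℝ :=
    fun y => sSup ((fun x => inner ℝ x y - φ x) '' K) with hF
  have hbdd : ∀ y, BddAbove ((fun x => inner ℝ x y - φ x) '' K) := by
    intro y
    refine ⟨RK * ‖y‖ + Bφ, ?_⟩
    rintro _ ⟨x, hx, rfl⟩
    have h1 : inner ℝ x y ≤ ‖x‖ * ‖y‖ := real_inner_le_norm x y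
    have h2 := hBφ x hx
    have h3 := hRK x hx
    rw [Real.norm_eq_abs] at h2
    have h4 := abs_le.1 h2
    have h5 : ‖x‖ * ‖y‖ ≤ RK * ‖y‖ := mul_le_mul_of_nonneg_right h3 (norm_nonneg y)
    show inner ℝ x y - φ x ≤ RK * ‖y‖ + Bφ
    linarith [h4.1]
  have hFY : ∀ x ∈ K, ∀ y, inner ℝ x y - φ x ≤ F y := fun x hx y =>
    le_csSup (hbdd y) (mem_image_of_mem _ hx)
  have hFle : ∀ y c, (∀ z ∈ K, inner ℝ z y - φ z ≤ c) → F y ≤ c := by
    intro y c h
    refine csSup_le (hKne.image _) ?_
    rintro _ ⟨z, hz, rfl⟩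
    exact h z hz
  have hFlip : ∀ y y', F y ≤ F y' + RK * ‖y - y'‖ := by
    intro y y'
    refine hFle y _ fun z hz => ?_
    have h1 := hFY z hz y'
    have h2 : inner ℝ z y = inner ℝ z y' + inner ℝ z (y - y') := by
      rw [inner_sub_right]; ring
    have h3 : inner ℝ z (y - y') ≤ ‖z‖ * ‖y - y'‖ := real_inner_le_norm _ _
    have h4 : ‖z‖ * ‖y - y'‖ ≤ RK * ‖y - y'‖ :=
      mul_le_mul_of_nonneg_right (hRK z hz) (norm_nonneg _)
    linarith
  have hFcont : Continuous F := by
    have : LipschitzWith (Real.toNNReal RK) F := by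
      refine LipschitzWith.of_le_add_mul _ fun y y' => ?_
      rw [Real.coe_toNNReal _ hRK0, dist_eq_norm]
      exact hFlip y y'
    exact this.continuous
  obtain ⟨BF, hBF⟩ := hYc.exists_bound_of_continuousOn hFcont.continuousOn
  -- integrability of φ
  have iφ : Integrable φ (uniformProbOn K) := by
    refine ⟨?_, HasFiniteIntegral.of_bounded (C := Bφ) ?_⟩
    · show AEStronglyMeasurable φ
        ((volume K)⁻¹ • (volume : Measure (EuclideanSpace ℝ (Fin d))).restrict K)
      exact (hφ.aestronglyMeasurable hKm).smul_measure _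
    · filter_upwards [hKae] with x hx using hBφ x hx
  have i4 : Integrable (fun x : EuclideanSpace ℝ (Fin d) => ‖x‖ ^ 2) (uniformProbOn K) := by
    refine ⟨(by fun_prop : Continuous fun x : EuclideanSpace ℝ (Fin d) => ‖x‖ ^ 2).aestronglyMeasurable,
      HasFiniteIntegral.of_bounded (C := RK ^ 2) ?_⟩
    filter_upwards [hKae] with x hx
    rw [Real.norm_eq_abs, abs_of_nonneg (by positivity)]
    exact pow_le_pow_left₀ (norm_nonneg _) (hRK x hx) 2
  -- facts for any measurable map pushing ρ to μ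
  have key : ∀ U : EuclideanSpace ℝ (Fin d) → EuclideanSpace ℝ (Fin d), Measurable U →
      (uniformProbOn K).map U = μ →
      Integrable (fun x => F (U x)) (uniformProbOn K) ∧
      Integrable (fun x => inner ℝ x (U x)) (uniformProbOn K) ∧
      ∫ x, F (U x) ∂(uniformProbOn K) = ∫ y, F y ∂μ ∧
      ∫⁻ x, ‖x - U x‖ₑ ^ 2 ∂(uniformProbOn K) =
        ENNReal.ofReal (∫ x, ‖x - U x‖ ^ 2 ∂(uniformProbOn K)) ∧
      ∫ x, ‖x - U x‖ ^ 2 ∂(uniformProbOn K) = ∫ x, ‖x‖ ^ 2 ∂(uniformProbOn K)
        - 2 * ∫ x, inner ℝ x (U x) ∂(uniformProbOn K) + ∫ y, ‖y‖ ^ 2 ∂μ := by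
    intro U hUm hUpush
    have hUY : ∀ᵐ x ∂(uniformProbOn K), U x ∈ Y := by
      have h0 : ((uniformProbOn K).map U) Yᶜ = 0 := by rw [hUpush]; exact hμ.2
      rw [Measure.map_apply hUm hYm.compl] at h0
      rw [ae_iff]
      exact h0
    have i1 : Integrable (fun x => F (U x)) (uniformProbOn K) := by
      refine ⟨(hFcont.measurable.comp hUm).aestronglyMeasurable,
        HasFiniteIntegral.of_bounded (C := BF) ?_⟩
      filter_upwards [hUY] with x hx using hBF (U x) hx
    have i2 : Integrable (fun x => inner ℝ x (U x)) (uniformProbOn K) := by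
      refine ⟨(measurable_id.inner hUm).aestronglyMeasurable,
        HasFiniteIntegral.of_bounded (C := RK * RY) ?_⟩
      filter_upwards [hUY, hKae] with x hx hxK
      calc ‖inner ℝ x (U x)‖ ≤ ‖x‖ * ‖U x‖ := norm_inner_le_norm _ _
        _ ≤ RK * RY := mul_le_mul (hRK x hxK) (hRY _ hx) (norm_nonneg _) hRK0
    have i3 : Integrable (fun x => ‖U x‖ ^ 2) (uniformProbOn K) := by
      refine ⟨(hUm.norm.pow_const 2).aestronglyMeasurable,
        HasFiniteIntegral.of_bounded (C := RY ^ 2) ?_⟩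
      filter_upwards [hUY] with x hx
      rw [Real.norm_eq_abs, abs_of_nonneg (by positivity)]
      exact pow_le_pow_left₀ (norm_nonneg _) (hRY _ hx) 2
    have e1 : ∫ x, F (U x) ∂(uniformProbOn K) = ∫ y, F y ∂μ := by
      rw [← hUpush, integral_map hUm.aemeasurable hFcont.aestronglyMeasurable]
    have hc2 : Continuous (fun y : EuclideanSpace ℝ (Fin d) => ‖y‖ ^ 2) := by fun_prop
    have e2 : ∫ x, ‖U x‖ ^ 2 ∂(uniformProbOn K) = ∫ y, ‖y‖ ^ 2 ∂μ := by
      rw [← hUpush, integral_map hUm.aemeasurable hc2.aestronglyMeasurable]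
    have hexp : (fun x => ‖x - U x‖ ^ 2) =
        fun x => ‖x‖ ^ 2 - 2 * inner ℝ x (U x) + ‖U x‖ ^ 2 := by
      funext x; exact norm_sub_sq_real x (U x)
    have i5 : Integrable (fun x => ‖x - U x‖ ^ 2) (uniformProbOn K) := by
      rw [hexp]
      exact (i4.sub (i2.const_mul 2)).add i3
    refine ⟨i1, i2, e1, ?_, ?_⟩
    · rw [ofReal_integral_eq_lintegral_ofReal i5
        (Filter.Eventually.of_forall fun x => by positivity)]
      refine lintegral_congr fun x => ?_
      rw [ENNReal.ofReal_pow (norm_nonneg _), ofReal_norm]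
    · have h1 := integral_add (i4.sub (i2.const_mul 2)) i3
      have h2 := integral_sub i4 (i2.const_mul 2)
      simp only [Pi.sub_apply] at h1 h2
      rw [hexp, h1, h2, integral_const_mul, e2]
  obtain ⟨iFT, iIT, eFT, cT, cT'⟩ := key T hTm hTpush
  obtain ⟨iFS, iIS, eFS, cS, cS'⟩ := key S hS hSpush
  -- optimality: ∫⟪x, T x⟫ ≥ ∫⟪x, S x⟫
  have hcost := hTopt S hS hSpush
  rw [cT, cS, ENNReal.ofReal_le_ofReal_iff (integral_nonneg fun x => by positivity), cT', cS']
    at hcost
  have hIT : ∫ x, inner ℝ x (S x) ∂(uniformProbOn K) ≤ ∫ x, inner ℝ x (T x) ∂(uniformProbOn K) := by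
    linarith
  -- the gap of S vanishes a.e.
  have hgS : ∀ᵐ x ∂(uniformProbOn K), φ x + F (S x) - inner ℝ x (S x) = 0 := by
    filter_upwards [hKae, hSsub] with x hxK hx
    have h1 : F (S x) ≤ inner ℝ x (S x) - φ x := by
      refine hFle (S x) _ fun z hz => ?_
      have h := hx z hz
      rw [inner_sub_right, real_inner_comm z (S x), real_inner_comm x (S x)] at h
      linarith
    have h2 := hFY x hxK (S x)
    linarith
  have eS : ∫ x, φ x ∂(uniformProbOn K) + ∫ y, F y ∂μ - ∫ x, inner ℝ x (S x) ∂(uniformProbOn K)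
      = 0 := by
    have h1 := integral_add iφ iFS
    have h2 := integral_sub (iφ.add iFS) iIS
    simp only [Pi.add_apply] at h2
    have h3 : ∫ x, (φ x + F (S x) - inner ℝ x (S x)) ∂(uniformProbOn K) = 0 := by
      rw [integral_congr_ae hgS, integral_zero]
    rw [h2, h1, eFS] at h3
    exact h3
  -- the gap of T
  have iG : Integrable (fun x => φ x + F (T x) - inner ℝ x (T x)) (uniformProbOn K) :=
    (iφ.add iFT).sub iIT
  have hG0 : 0 ≤ᵐ[uniformProbOn K] fun x => φ x + F (T x) - inner ℝ x (T x) := by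
    filter_upwards [hKae] with x hxK
    have h2 := hFY x hxK (T x)
    show 0 ≤ φ x + F (T x) - inner ℝ x (T x)
    linarith
  have eT : ∫ x, (φ x + F (T x) - inner ℝ x (T x)) ∂(uniformProbOn K) =
      ∫ x, φ x ∂(uniformProbOn K) + ∫ y, F y ∂μ - ∫ x, inner ℝ x (T x) ∂(uniformProbOn K) := by
    have h1 := integral_add iφ iFT
    have h2 := integral_sub (iφ.add iFT) iIT
    simp only [Pi.add_apply] at h2
    rw [h2, h1, eFT]
  have hGle : ∫ x, (φ x + F (T x) - inner ℝ x (T x)) ∂(uniformProbOn K) ≤ 0 := by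
    rw [eT]; linarith
  have hGz : (fun x => φ x + F (T x) - inner ℝ x (T x)) =ᵐ[uniformProbOn K] 0 :=
    (integral_eq_zero_iff_of_nonneg_ae hG0 iG).1 (le_antisymm hGle (integral_nonneg_of_ae hG0))
  filter_upwards [hKae, hGz] with x hxK hx z hz
  have h1 := hFY z hz (T x)
  have h2 : φ x + F (T x) - inner ℝ x (T x) = 0 := hx
  rw [inner_sub_right, real_inner_comm z (T x), real_inner_comm x (T x)]
  linarith

end Crest.Agent.Helper66.OT
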